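import Vale.Agent.P032.H475.FastDef

/-!
# The faster check is sound
-/

namespace Vale.Agent.P032.Words.Trie

namespace Fast

/-! ### Bits -/

theorem bt_xor_ne {m p a : ℕ} (h : a ≠ p) :
    bt (Nat.xor m (Nat.shiftLeft 1 p)) a = bt m a := by
  rw [bt_eq, bt_eq]
  have e : Nat.xor m (Nat.shiftLeft 1 p) = m ^^^ (1 <<< p) := rfl
  rw [e, Nat.testBit_xor, Nat.one_shiftLeft, Nat.testBit_two_pow]
  have : decide (p = a) = false := decide_eq_false fun h' => h h'.symm
  rw [this, Bool.xor_false]

theorem bt_zero (a : ℕ) : bt 0 a = false := by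
  rw [bt_eq]; exact Nat.zero_testBit a

theorem rec_tt {a b : Bool} (h : Bool.rec (motive := fun _ => Bool) false b a = true) :
    a = true ∧ b = true := by
  cases a with
  | false => exact absurd h (by simp)
  | true => exact ⟨rfl, h⟩

theorem bitsF_spec {f : ℕ → Bool} : ∀ {n m : ℕ}, bitsF n f m = true → ∀ a, bt m a = true →
    f a = true
  | 0, m, h, a, ha => by
    have h' : m = 0 := Nat.eq_of_beq_eq_true h
    rw [h', bt_zero] at ha
    exact absurd ha (by simp)
  | n + 1, m, h, a, ha => by
    have h' : Bool.rec (motive := fun _ => Bool)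
      (Nat.rec (motive := fun _ => Bool)
        (Bool.rec (motive := fun _ => Bool) false (bitsF n f (Nat.xor m 1)) (f 0))
        (fun p _ => Bool.rec (motive := fun _ => Bool) false
        (bitsF n f (Nat.xor m (Nat.shiftLeft 1 (Nat.succ p)))) (f (Nat.succ p))) (lb m))
      true (Nat.beq m 0) = true := h
    cases hq : Nat.beq m 0 with
    | true =>
      have h' : m = 0 := Nat.eq_of_beq_eq_true hq
      rw [h', bt_zero] at ha
      exact absurd ha (by simp)
    | false =>
      rw [hq] at h'
      generalize lb m = p at h'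
      have key : f p = true ∧ bitsF n f (Nat.xor m (Nat.shiftLeft 1 p)) = true := by
        cases p with
        | zero => exact rec_tt h'
        | succ p => exact rec_tt h'
      by_cases hap : a = p
      · rw [hap]; exact key.1
      · exact bitsF_spec key.2 a (by rw [bt_xor_ne hap]; exact ha)

theorem one_aux : ∀ (m i j : ℕ), m &&& (m - 1) = 0 → m.testBit i = true → m.testBit j = true →
    i = j := by
  intro m
  induction m using Nat.strong_induction_on with
  | _ m ih =>
    intro i j h hi hj
    rcases Nat.even_or_odd' m with ⟨k, rfl | rfl⟩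
    · rcases Nat.eq_zero_or_pos k with rfl | hk
      · simp at hi
      · have h1 : 2 * k - 1 = 2 * (k - 1) + 1 := by omega
        have h2 : k &&& (k - 1) = 0 := by
          apply Nat.eq_of_testBit_eq
          intro t
          have h3 := congrArg (fun x => x.testBit (t + 1)) h
          simp only [Nat.testBit_and, Nat.zero_testBit] at h3
          rw [h1] at h3
          have e1 : (2 * k).testBit (t + 1) = k.testBit t := by
            rw [Nat.testBit_succ]; congr 1; omega
          have e2 : (2 * (k - 1) + 1).testBit (t + 1) = (k - 1).testBit t := by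
            rw [Nat.testBit_succ]; congr 1; omega
          rw [e1, e2] at h3
          rw [Nat.testBit_and, h3, Nat.zero_testBit]
        cases i with
        | zero => rw [Nat.testBit_zero] at hi; simp at hi
        | succ i =>
          cases j with
          | zero => rw [Nat.testBit_zero] at hj; simp at hj
          | succ j =>
            rw [Nat.testBit_succ, show 2 * k / 2 = k by omega] at hi hj
            rw [ih k (by omega) i j h2 hi hj]
    · have h1 : 2 * k + 1 - 1 = 2 * k := by omega
      rw [h1] at h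
      have h2 : k = 0 := by
        apply Nat.eq_of_testBit_eq
        intro t
        have h3 := congrArg (fun x => x.testBit (t + 1)) h
        simp only [Nat.testBit_and, Nat.zero_testBit] at h3
        have e1 : (2 * k).testBit (t + 1) = k.testBit t := by
          rw [Nat.testBit_succ]; congr 1; omega
        have e2 : (2 * k + 1).testBit (t + 1) = k.testBit t := by
          rw [Nat.testBit_succ]; congr 1; omega
        rw [e1, e2, Bool.and_self] at h3
        rw [h3, Nat.zero_testBit]
      subst h2
      cases i with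
      | zero =>
        cases j with
        | zero => rfl
        | succ j => rw [Nat.testBit_succ] at hj; simp at hj
      | succ i => rw [Nat.testBit_succ] at hi; simp at hi

theorem one_spec {m i j : ℕ} (h : one m = true) (hi : bt m i = true) (hj : bt m j = true) :
    i = j := by
  have h' : m &&& (m - 1) = 0 := Nat.eq_of_beq_eq_true h
  rw [bt_eq] at hi hj
  exact one_aux m i j h' hi hj

theorem bt_lor (m m' a : ℕ) : bt (Nat.lor m m') a = (bt m a || bt m' a) := by
  rw [bt_eq, bt_eq, bt_eq]
  exact Nat.testBit_or m m' a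

/-! ### Masks of leaves -/

theorem LM_c {a : ℕ} {s r : Tr} : LM (.c a s r) = Nat.lor (LM s) (LM r) := rfl

theorem LM_ch {t : Tr} {a v : ℕ} (h : bt (LM (ch t a)) v = true) : bt (LM t) v = true := by
  induction t with
  | e => exact h
  | l u =>
    have h' : bt 0 v = true := h
    rw [bt_zero] at h'
    exact absurd h' (by simp)
  | c b s r _ ihr =>
    rw [ch_c] at h
    rw [LM_c, bt_lor]
    cases hb : Nat.beq b a with
    | true =>
      rw [hb, cond_true] at h
      rw [h, Bool.true_or]
    | false =>
      rw [hb, cond_false] at h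
      rw [ihr h, Bool.or_true]

theorem LM_get : ∀ {w : List ℕ} {t : Tr} {v : ℕ}, get t w = .l v → bt (LM t) v = true
  | [], t, v, h => by
    have h : t = .l v := h
    subst h
    show bt (Nat.shiftLeft 1 v) v = true
    rw [bt_eq]
    have e : Nat.shiftLeft 1 v = 1 <<< v := rfl
    rw [e, Nat.one_shiftLeft, Nat.testBit_two_pow]
    exact decide_eq_true rfl
  | a :: w, t, v, h => LM_ch (LM_get (w := w) (t := ch t a) h)

theorem LS_mem {t : Tr} {a v : ℕ} (h : bt (LM (ch t a)) v = true) : ∀ {l : List ℕ}, a ∈ l →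
    bt (LS l t) v = true
  | [], ha => absurd ha (by simp)
  | b :: l, ha => by
    show bt (Nat.lor (LM (ch t b)) (LS l t)) v = true
    rw [bt_lor]
    rcases List.mem_cons.1 ha with rfl | ha
    · rw [h, Bool.true_or]
    · rw [LS_mem h ha, Bool.or_true]

/-! ### Children -/

theorem toL_c {t : Tr} {x y z : ℕ} {w : List ℕ} {S : ML} :
    toL (.c t x y z w S) = (t, x :: y :: z :: w) :: toL S := rfl

theorem kC_sel {ok : ℕ → Bool} {x y z : ℕ} {w : List ℕ} {t : Tr} {S : ML} : ∀ {l : List ℕ},
    toL (kC x y z w S (sel (l.filter ok) t)) = kid2 ok (x :: y :: z :: w) t l (toL S)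
  | [] => rfl
  | a :: l => by
    have ih := kC_sel (ok := ok) (x := x) (y := y) (z := z) (w := w) (t := t) (S := S) (l := l)
    show _ = Tr.rec (motive := fun _ => List (Tr × List ℕ)) (kid2 ok (x :: y :: z :: w) t l (toL S))
      (fun v => cond (ok a) ((.l v, a :: x :: y :: z :: w) :: kid2 ok (x :: y :: z :: w) t l (toL S))
        (kid2 ok (x :: y :: z :: w) t l (toL S)))
      (fun b s r' _ _ => cond (ok a) ((.c b s r', a :: x :: y :: z :: w) ::
        kid2 ok (x :: y :: z :: w) t l (toL S)) (kid2 ok (x :: y :: z :: w) t l (toL S))) (ch t a)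
    cases ho : ok a with
    | false =>
      rw [List.filter_cons_of_neg (by rw [ho]; simp), ih]
      cases ch t a <;> rfl
    | true =>
      rw [List.filter_cons_of_pos (by rw [ho])]
      have e : sel (a :: l.filter ok) t = Tr.rec (motive := fun _ => CL) (sel (l.filter ok) t)
        (fun v => .c a (.l v) (sel (l.filter ok) t))
        (fun b s r _ _ => .c a (.c b s r) (sel (l.filter ok) t)) (ch t a) := rfl
      rw [e]
      cases ch t a with
      | e => exact ih
      | l v =>
        show toL (.c (.l v) a x y (z :: w) (kC x y z w S (sel (l.filter ok) t))) = _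
        rw [toL_c, ih]; rfl
      | c b s r =>
        show toL (.c (.c b s r) a x y (z :: w) (kC x y z w S (sel (l.filter ok) t))) = _
        rw [toL_c, ih]; rfl

theorem flt_of_nd {D : Dat} {q p : ℕ} (h : ndF D q p = false) (b a : ℕ) :
    flt D q p b a = true := by
  unfold ndF at h
  unfold flt
  cases h1 : Nat.ble D.A q with
  | false => rfl
  | true =>
    cases h2 : Nat.ble D.A p with
    | false => rfl
    | true =>
      rw [h1, h2] at h
      have h3 : Nat.beq (Nat.land (D.P.getD q 0) (D.P.getD p 0)) 0 = true := by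
        cases h4 : Nat.beq (Nat.land (D.P.getD q 0) (D.P.getD p 0)) 0 with
        | true => rfl
        | false => rw [h4] at h; exact absurd h (by simp)
      rw [h3]; rfl

theorem fl_eq {D : Dat} {q p : ℕ} (h : ndF D q p = true) (b : ℕ) :
    fl D q p b = (D.PL.getD p []).filter (fun a => flt D q p b a) := by
  unfold ndF at h
  obtain ⟨h1, h⟩ := rec_tt h
  obtain ⟨h2, h⟩ := rec_tt h
  have h3 : Nat.beq (Nat.land (D.P.getD q 0) (D.P.getD p 0)) 0 = false := by
    cases h4 : Nat.beq (Nat.land (D.P.getD q 0) (D.P.getD p 0)) 0 with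
    | false => rfl
    | true => rw [h4] at h; exact absurd h (by simp)
  unfold fl
  cases h5 : Nat.beq (Nat.add (D.L.getD b 0) (Nat.land (D.P.getD q 0) (D.P.getD p 0)))
      (D.P.getD q 0) with
  | false =>
    show D.PL.getD p [] = _
    rw [List.filter_eq_self.2]
    intro a _
    unfold flt
    rw [h1, h2, h3, h5]; rfl
  | true =>
    show List.filter _ _ = _
    apply List.filter_congr
    intro a _
    unfold flt
    rw [h1, h2, h3, h5]
    cases Nat.beq (Nat.add (D.L.getD a 0) (Nat.land (D.P.getD q 0) (D.P.getD p 0))) (D.P.getD p 0) <;>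
      rfl

theorem kids_eq {D : Dat} {q p x' y' : ℕ} {th : List ℕ} : ∀ {S : ML},
    toL (kidsM D q p S) = kids2 (flt D) (x' :: y' :: q :: th) p (D.PL.getD p []) (toL S) := by
  intro S
  unfold kidsM
  cases hn : ndF D q p with
  | false =>
    show toL (ML.rec (motive := fun _ => ML) .n
      (fun t x y z w _ ih => kC x y z w ih (sel (D.PL.getD p []) t)) S) = _
    induction S with
    | n => rfl
    | c t x y z w S ih =>
      show toL (kC x y z w (ML.rec (motive := fun _ => ML) .n
        (fun t x y z w _ ih => kC x y z w ih (sel (D.PL.getD p []) t)) S) (sel (D.PL.getD p []) t)) = _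
      have e : D.PL.getD p [] = (D.PL.getD p []).filter
          (flt3 (flt D) (x' :: y' :: q :: th) p (x :: y :: z :: w)) := by
        rw [List.filter_eq_self.2]
        intro a _
        exact flt_of_nd hn z a
      have e2 : sel (D.PL.getD p []) t = sel ((D.PL.getD p []).filter
          (flt3 (flt D) (x' :: y' :: q :: th) p (x :: y :: z :: w))) t := by rw [← e]
      rw [e2, kC_sel, ih]
      rfl
  | true =>
    show toL (ML.rec (motive := fun _ => ML) .n
      (fun t x y z w _ ih => kC x y z w ih (sel (fl D q p z) t)) S) = _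
    induction S with
    | n => rfl
    | c t x y z w S ih =>
      show toL (kC x y z w (ML.rec (motive := fun _ => ML) .n
        (fun t x y z w _ ih => kC x y z w ih (sel (fl D q p z) t)) S) (sel (fl D q p z) t)) = _
      rw [fl_eq hn, kC_sel, ih]
      rfl

/-- `M` contains all leaves below `L` -/
def Cov (M : ℕ) (L : List (Tr × List ℕ)) : Prop :=
  ∀ m ∈ L, ∀ w v, get m.1 w = .l v → bt M v = true

theorem cov_kC {x y z : ℕ} {w : List ℕ} {t : Tr} {S : ML} {M : ℕ} : ∀ {l : List ℕ},
    (∀ v, bt (LS l t) v = true → bt M v = true) → Cov M (toL S) →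
    Cov M (toL (kC x y z w S (sel l t)))
  | [], _, hS => hS
  | a :: l, hM, hS => by
    have h1 : ∀ v, bt (LM (ch t a)) v = true → bt M v = true := fun v hv => hM v (by
      show bt (Nat.lor (LM (ch t a)) (LS l t)) v = true
      rw [bt_lor, hv, Bool.true_or])
    have ih := cov_kC (x := x) (y := y) (z := z) (w := w) (t := t) (S := S) (M := M) (l := l)
      (fun v hv => hM v (by
        show bt (Nat.lor (LM (ch t a)) (LS l t)) v = true
        rw [bt_lor, hv, Bool.or_true])) hS
    have e : sel (a :: l) t = Tr.rec (motive := fun _ => CL) (sel l t)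
      (fun v => .c a (.l v) (sel l t))
      (fun b s r _ _ => .c a (.c b s r) (sel l t)) (ch t a) := rfl
    rw [e]
    cases hc : ch t a with
    | e => exact ih
    | l v =>
      show Cov M (toL (.c (.l v) a x y (z :: w) (kC x y z w S (sel l t))))
      rw [toL_c]
      intro m hm
      rcases List.mem_cons.1 hm with rfl | hm
      · intro w' v' hg
        exact h1 v' (by rw [hc]; exact LM_get hg)
      · exact ih m hm
    | c b s r =>
      show Cov M (toL (.c (.c b s r) a x y (z :: w) (kC x y z w S (sel l t))))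
      rw [toL_c]
      intro m hm
      rcases List.mem_cons.1 hm with rfl | hm
      · intro w' v' hg
        exact h1 v' (by rw [hc]; exact LM_get hg)
      · exact ih m hm

theorem Cov.mono {M M' : ℕ} {L : List (Tr × List ℕ)} (h : ∀ v, bt M v = true → bt M' v = true)
    (hc : Cov M L) : Cov M' L := fun m hm w v hg => h v (hc m hm w v hg)

theorem cov_FM {D : Dat} {q p : ℕ} : ∀ {S : ML}, Cov (FM D q p S) (toL (kidsM D q p S)) := by
  intro S
  unfold FM kidsM
  cases hn : ndF D q p with
  | false =>
    show Cov (ML.rec (motive := fun _ => ℕ) 0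
      (fun t _ _ _ _ _ ih => Nat.lor (LS (D.PL.getD p []) t) ih) S)
      (toL (ML.rec (motive := fun _ => ML) .n
      (fun t x y z w _ ih => kC x y z w ih (sel (D.PL.getD p []) t)) S))
    induction S with
    | n => intro m hm; exact absurd hm (by simp [toL])
    | c t x y z w S ih =>
      refine cov_kC (fun v hv => ?_) (ih.mono fun v hv => ?_)
      · show bt (Nat.lor (LS (D.PL.getD p []) t) _) v = true
        rw [bt_lor, hv, Bool.true_or]
      · show bt (Nat.lor (LS (D.PL.getD p []) t) _) v = true
        rw [bt_lor, hv, Bool.or_true]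
  | true =>
    show Cov (ML.rec (motive := fun _ => ℕ) 0
      (fun t _ _ z _ _ ih => Nat.lor (LS (fl D q p z) t) ih) S)
      (toL (ML.rec (motive := fun _ => ML) .n
      (fun t x y z w _ ih => kC x y z w ih (sel (fl D q p z) t)) S))
    induction S with
    | n => intro m hm; exact absurd hm (by simp [toL])
    | c t x y z w S ih =>
      refine cov_kC (fun v hv => ?_) (ih.mono fun v hv => ?_)
      · show bt (Nat.lor (LS (fl D q p z) t) _) v = true
        rw [bt_lor, hv, Bool.true_or]
      · show bt (Nat.lor (LS (fl D q p z) t) _) v = true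
        rw [bt_lor, hv, Bool.or_true]

/-! ### Depth -/

/-- uniform depth -/
def UD : ℕ → Tr → Prop
  | 0, t => ∃ v, t = .l v
  | n + 1, t => ∀ a, ch t a ≠ .e → UD n (ch t a)

/-- check of the depth -/
noncomputable def dep (n : ℕ) : Tr → Bool :=
  Nat.rec (motive := fun _ => Tr → Bool)
    (fun t => Tr.rec (motive := fun _ => Bool) false (fun _ => true) (fun _ _ _ _ _ => false) t)
    (fun _ ih t => allC (fun _ s => ih s) t) n

theorem dep_spec : ∀ {n : ℕ} {t : Tr}, dep n t = true → UD n t
  | 0, t, h => by
    cases t with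
    | e => exact absurd h (by simp [dep])
    | l v => exact ⟨v, rfl⟩
    | c a s r => exact absurd h (by simp [dep])
  | n + 1, t, h => fun a ha => by
    have h' : allC (fun _ s => dep n s) t = true := h
    exact dep_spec (allC_spec h' ha)

theorem mem_kid2_inv {ok : ℕ → Bool} {r : List ℕ} {t : Tr} {S : List (Tr × List ℕ)}
    {m : Tr × List ℕ} : ∀ {l : List ℕ}, m ∈ kid2 ok r t l S →
      m ∈ S ∨ ∃ a, m.1 = ch t a ∧ ch t a ≠ .e
  | [], h => Or.inl h
  | a :: l, h => by
    have h' : m ∈ Tr.rec (motive := fun _ => List (Tr × List ℕ)) (kid2 ok r t l S)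
      (fun v => cond (ok a) ((.l v, a :: r) :: kid2 ok r t l S) (kid2 ok r t l S))
      (fun b s r' _ _ => cond (ok a) ((.c b s r', a :: r) :: kid2 ok r t l S) (kid2 ok r t l S))
      (ch t a) := h
    cases hc : ch t a with
    | e => rw [hc] at h'; exact mem_kid2_inv h'
    | l v =>
      rw [hc] at h'
      cases ho : ok a with
      | false => simp only [ho, cond_false] at h'; exact mem_kid2_inv h'
      | true =>
        simp only [ho, cond_true] at h'
        rcases List.mem_cons.1 h' with rfl | h'
        · exact Or.inr ⟨a, hc.symm, by rw [hc]; simp⟩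
        · exact mem_kid2_inv h'
    | c b s r' =>
      rw [hc] at h'
      cases ho : ok a with
      | false => simp only [ho, cond_false] at h'; exact mem_kid2_inv h'
      | true =>
        simp only [ho, cond_true] at h'
        rcases List.mem_cons.1 h' with rfl | h'
        · exact Or.inr ⟨a, hc.symm, by rw [hc]; simp⟩
        · exact mem_kid2_inv h'

theorem mem_kids2_inv {flt : ℕ → ℕ → ℕ → ℕ → Bool} {th : List ℕ} {p : ℕ} {l : List ℕ}
    {m : Tr × List ℕ} : ∀ {S : List (Tr × List ℕ)}, m ∈ kids2 flt th p l S →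
      ∃ s ∈ S, ∃ a, m.1 = ch s.1 a ∧ ch s.1 a ≠ .e
  | [], h => absurd h (by simp [kids2])
  | s :: S, h => by
    have h' : m ∈ kid2 (flt3 flt th p s.2) s.2 s.1 l (kids2 flt th p l S) := h
    rcases mem_kid2_inv h' with h1 | ⟨a, h1, h2⟩
    · obtain ⟨s', hs', a, h2, h3⟩ := mem_kids2_inv h1
      exact ⟨s', List.mem_cons_of_mem _ hs', a, h2, h3⟩
    · exact ⟨s, List.mem_cons_self, a, h1, h2⟩

/-- good lists of members: uniform depth, leaves below `nl` -/
def Gd (nl n : ℕ) (L : List (Tr × List ℕ)) : Prop :=
  ∀ m ∈ L, UD n m.1 ∧ ∀ w v, get m.1 w = .l v → v < nl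

theorem Gd.kids {nl n : ℕ} {L : List (Tr × List ℕ)} (h : Gd nl (n + 1) L)
    {flt : ℕ → ℕ → ℕ → ℕ → Bool} {th : List ℕ} {p : ℕ} {l : List ℕ} :
    Gd nl n (kids2 flt th p l L) := by
  intro m hm
  obtain ⟨s, hs, a, h1, h2⟩ := mem_kids2_inv hm
  obtain ⟨u, b⟩ := h s hs
  rw [h1]
  exact ⟨u a h2, fun w v hg => b (a :: w) v hg⟩

/-- all leaves are equal -/
def Eqv (L : List (Tr × List ℕ)) : Prop :=
  ∀ m ∈ L, ∀ m' ∈ L, ∀ w w' v v', get m.1 w = .l v → get m'.1 w' = .l v' → v = v'

theorem Eqv.kids {L : List (Tr × List ℕ)} (h : Eqv L) {flt : ℕ → ℕ → ℕ → ℕ → Bool} {th : List ℕ}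
    {p : ℕ} {l : List ℕ} : Eqv (kids2 flt th p l L) := by
  intro m hm m' hm' w w' v v' hv hv'
  obtain ⟨s, hs, a, h1, _⟩ := mem_kids2_inv hm
  obtain ⟨s', hs', a', h1', _⟩ := mem_kids2_inv hm'
  rw [h1] at hv
  rw [h1'] at hv'
  exact h s hs s' hs' (a :: w) (a' :: w') v v' hv hv'

theorem eqv_of_one {M : ℕ} {L : List (Tr × List ℕ)} (h : one M = true) (hc : Cov M L) : Eqv L :=
  fun m hm m' hm' w w' v v' hv hv' => one_spec h (hc m hm w v hv) (hc m' hm' w' v' hv')

/-! ### The conditions on the table -/

/-- bit `i` of the `i`-th entry -/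
noncomputable def rr (nl : ℕ) (row : List ℕ) : ℕ → Bool :=
  List.rec (motive := fun _ => ℕ → Bool) (fun i => Nat.ble nl i)
    (fun b _ ih i => Bool.rec (motive := fun _ => Bool) false (ih (Nat.succ i)) (bt b i)) row

theorem rr_spec {nl v : ℕ} (hv : v < nl) : ∀ {row : List ℕ} {i : ℕ}, rr nl row i = true → i ≤ v →
    bt (row.getD (v - i) 0) v = true
  | [], i, h, hi => by
    have h' : nl ≤ i := Nat.le_of_ble_eq_true h
    omega
  | b :: row, i, h, hi => by
    obtain ⟨h1, h2⟩ := rec_tt (a := bt b i) (b := rr nl row (Nat.succ i)) h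
    rcases Nat.eq_or_lt_of_le hi with rfl | hi
    · rw [Nat.sub_self]; exact h1
    · have e : v - i = (v - (i + 1)) + 1 := by omega
      rw [e]
      exact rr_spec hv (row := row) h2 hi

/-- the conditions on the table -/
noncomputable def preF (D : Dat) (J : List (List ℕ)) (nl : ℕ) (T : Tr) : Bool :=
  Bool.rec (motive := fun _ => Bool) false
    (Bool.rec (motive := fun _ => Bool) false
      (Bool.rec (motive := fun _ => Bool) false
        ((List.range (2 ^ D.r)).all fun tm => Nat.beq tm 0 || rr nl (J.getD tm []) 0)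
        (D.tie.all fun m => Nat.blt m (2 ^ D.r)))
      (Nat.blt (LM T) (Nat.pow 2 nl)))
    (dep 6 T)

/-- what is needed of the table -/
structure Pre (D : Dat) (J : List (List ℕ)) (nl : ℕ) (T : Tr) : Prop where
  ud : UD 6 T
  lt : ∀ w v, get T w = .l v → v < nl
  tie : (D.tie.all fun m => Nat.blt m (2 ^ D.r)) = true
  rf : ∀ tm < 2 ^ D.r, tm ≠ 0 → ∀ v < nl, bt ((J.getD tm []).getD v 0) v = true

theorem pre_of {D : Dat} {J : List (List ℕ)} {nl : ℕ} {T : Tr} (h : preF D J nl T = true) :
    Pre D J nl T := by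
  obtain ⟨h1, h⟩ := rec_tt h
  obtain ⟨h2, h⟩ := rec_tt h
  obtain ⟨h3, h⟩ := rec_tt h
  refine ⟨dep_spec h1, fun w v hg => ?_, h3, fun tm ht h0 v hv => ?_⟩
  · have h4 : LM T < 2 ^ nl := Nat.le_of_ble_eq_true h2
    have h5 := LM_get hg
    rw [bt_eq] at h5
    by_contra hn
    have h6 : (LM T).testBit v = false := Nat.testBit_lt_two_pow (lt_of_lt_of_le h4
      (Nat.pow_le_pow_right (by norm_num) (not_lt.1 hn)))
    rw [h6] at h5
    exact absurd h5 (by simp)
  · have h4 := List.all_eq_true.1 h tm (List.mem_range.2 ht)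
    rw [Bool.or_eq_true] at h4
    rcases h4 with h4 | h4
    · exact absurd (Nat.eq_of_beq_eq_true h4) h0
    · have := rr_spec hv h4 (Nat.zero_le v)
      rwa [Nat.sub_zero] at this

variable {D : Dat} {J : List (List ℕ)} {nl : ℕ} {T : Tr}

theorem sam_of {v : ℕ} : ∀ {S : List (Tr × List ℕ)}, (∀ m ∈ S, m.1 = .l v) → sam S = true := by
  intro S h
  cases S with
  | nil => rfl
  | cons s S =>
    show sam1 s.1 S = true
    have hs := h s List.mem_cons_self
    have h' : ∀ m ∈ S, m.1 = .l v := fun m hm => h m (List.mem_cons_of_mem _ hm)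
    clear h
    induction S with
    | nil => rfl
    | cons u S ih =>
      show cond (leq s.1 u.1) (sam1 s.1 S) false = true
      rw [hs, h' u List.mem_cons_self]
      have e : leq (.l v) (.l v) = true := by
        show Nat.beq v v = true
        exact Nat.beq_refl v
      rw [e, cond_true, ← hs]
      exact ih fun m hm => h' m (List.mem_cons_of_mem _ hm)

theorem pairs_of {v : ℕ} {f : ℕ → ℕ → Bool} (hf : f v v = true) :
    ∀ {S S' : List (Tr × List ℕ)}, (∀ m ∈ S, m.1 = .l v) → (∀ m ∈ S', m.1 = .l v) →
      pairs f S S' = true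
  | [], _, _, _ => rfl
  | s :: S, S', h, h' => by
    have h1 : List.rec (motive := fun _ => Bool) true
      (fun t _ ih => cond (lrel f s.1 t.1) ih false) S' = true := by
      have hs := h s List.mem_cons_self
      clear h
      induction S' with
      | nil => rfl
      | cons u S' ih =>
        show cond (lrel f s.1 u.1) (List.rec (motive := fun _ => Bool) true
          (fun t _ ih => cond (lrel f s.1 t.1) ih false) S') false = true
        rw [ih fun m hm => h' m (List.mem_cons_of_mem _ hm), hs, h' u List.mem_cons_self]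
        show cond (f v v) true false = true
        rw [hf]; rfl
    show cond (List.rec (motive := fun _ => Bool) true
      (fun t _ ih => cond (lrel f s.1 t.1) ih false) S') (pairs f S S') false = true
    rw [h1, cond_true]
    exact pairs_of hf (fun m hm => h m (List.mem_cons_of_mem _ hm)) h'

theorem fin_of (P : Pre D J nl T) {th : List ℕ} {K : List (Tr × List ℕ)} (hG : Gd nl 0 K)
    (hE : Eqv K) : finB D J th K = true := by
  have key : cond (Nat.beq (tmk D.tie th) 0) (sam K)
      (pairs (fun x y => bt ((J.getD (tmk D.tie th) []).getD x 0) y) K K) = true := by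
    cases K with
    | nil => cases Nat.beq (tmk D.tie th) 0 <;> rfl
    | cons k K =>
      obtain ⟨⟨v, hv⟩, hl⟩ := hG k List.mem_cons_self
      have hvl : v < nl := hl [] v hv
      have hall : ∀ m ∈ k :: K, m.1 = .l v := by
        intro m hm
        obtain ⟨⟨u, hu⟩, _⟩ := hG m hm
        have : u = v := hE m hm k List.mem_cons_self [] [] u v hu hv
        rw [hu, this]
      cases h0 : Nat.beq (tmk D.tie th) 0 with
      | true => exact sam_of hall
      | false =>
        have hne : tmk D.tie th ≠ 0 := fun he => by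
          rw [he] at h0
          exact absurd h0 (by decide)
        exact pairs_of (f := fun x y => bt ((J.getD (tmk D.tie th) []).getD x 0) y)
          (P.rf _ (tmk_lt P.tie th) hne v hvl) hall hall
  unfold finB
  rw [key, cond_true]

/-! ### The levels -/

theorem allR_of' {f : ℕ → Bool} {m : ℕ} : ∀ {l : List ℕ}, (∀ a, bt m a = true → f a = true) →
    allR l f m = true
  | [], _ => rfl
  | b :: l, h => by
    show cond (bt m b) (cond (f b) (allR l f m) false) (allR l f m) = true
    rw [allR_of' (l := l) h]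
    cases hb : bt m b with
    | false => rfl
    | true => rw [h b hb]; rfl

/-- one step -/
theorem step {l : List ℕ} {PL : List (List ℕ)} {up : ℕ → List ℕ → List ℕ}
    {flt : ℕ → ℕ → ℕ → ℕ → Bool} {fin : List ℕ → List (Tr × List ℕ) → Bool} {n m : ℕ}
    {ms th : List ℕ} {S : List (Tr × List ℕ)}
    (h : ∀ p, bt m p = true → kids2 flt th p (PL.getD p []) S ≠ [] →
      cs2 l PL up flt fin n (up p ms) (p :: th) (kids2 flt th p (PL.getD p []) S) = true) :
    cs2 l PL up flt fin (n + 1) (m :: ms) th S = true := by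
  show allR l (fun p => cond (isNil2 (kids2 flt th p (PL.getD p []) S)) true
        (fL (up p ms) fun ms' => cs2 l PL up flt fin n ms' (p :: th)
          (kids2 flt th p (PL.getD p []) S))) m = true
  refine allR_of' fun p hp => ?_
  rw [fL_eq]
  cases hk : kids2 flt th p (PL.getD p []) S with
  | nil => rfl
  | cons k K =>
    have h1 := h p hp (by rw [hk]; simp)
    rw [hk] at h1
    exact h1

/-- the function of the table -/
noncomputable abbrev cz (D : Dat) (J : List (List ℕ)) : ℕ → List ℕ → List ℕ → List (Tr × List ℕ) → Bool :=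
  cs2 (List.range D.N) D.PL (upG D.nbT D.opT) (flt D) (finB D J)

theorem eqv0 (P : Pre D J nl T) {th : List ℕ} {K : List (Tr × List ℕ)} (hG : Gd nl 0 K)
    (hE : Eqv K) : cz D J 0 [] th K = true := fin_of P hG hE

theorem eqv1 (P : Pre D J nl T) {th : List ℕ} {m : ℕ} {K : List (Tr × List ℕ)} (hG : Gd nl 1 K)
    (hE : Eqv K) : cz D J 1 [m] th K = true :=
  step fun _ _ _ => eqv0 P hG.kids hE.kids

theorem eqv2 (P : Pre D J nl T) {th : List ℕ} {m m' : ℕ} {K : List (Tr × List ℕ)} (hG : Gd nl 2 K)
    (hE : Eqv K) : cz D J 2 [m, m'] th K = true :=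
  step fun _ _ _ => eqv1 P hG.kids hE.kids

theorem zero_step {l : List ℕ} {PL : List (List ℕ)} {up : ℕ → List ℕ → List ℕ}
    {flt : ℕ → ℕ → ℕ → ℕ → Bool} {fin : List ℕ → List (Tr × List ℕ) → Bool} {n m : ℕ}
    {ms th : List ℕ} {S : List (Tr × List ℕ)} (h : m = 0) :
    cs2 l PL up flt fin (n + 1) (m :: ms) th S = true :=
  step fun p hp => by rw [h, bt_zero] at hp; exact absurd hp (by simp)

theorem G1 (P : Pre D J nl T) {q m5 x y : ℕ} {th : List ℕ} {S : ML}
    (h : g1 D J q (x :: y :: q :: th) m5 S = true) (hG : Gd nl 1 (toL S)) :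
    cz D J 1 [m5] (x :: y :: q :: th) (toL S) = true := by
  refine step fun p hp _ => ?_
  have h1 := bitsF_spec h p hp
  show finB D J _ _ = true
  cases ho : one (FM D q p S) with
  | true =>
    refine fin_of P hG.kids ?_
    rw [← kids_eq]
    exact eqv_of_one ho cov_FM
  | false =>
    have h2 : Bool.rec (motive := fun _ => Bool)
      (finB D J (p :: x :: y :: q :: th) (kids2 (flt D) (x :: y :: q :: th) p (D.PL.getD p [])
        (toL S))) true (one (FM D q p S)) = true := h1
    rw [ho] at h2
    exact h2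

theorem neM_spec {K : ML} {k : ML → Bool} (h : neM K k = true) (hn : toL K ≠ []) : k K = true := by
  cases K with
  | n => exact absurd rfl hn
  | c t x y z w l => exact h

theorem G2 (P : Pre D J nl T) {q q' m4 m5 x : ℕ} {th : List ℕ} {S : ML}
    (h : g2 D J q q' (x :: q' :: q :: th) m4 m5 S = true) (hG : Gd nl 2 (toL S)) :
    cz D J 2 [m4, m5] (x :: q' :: q :: th) (toL S) = true := by
  refine step fun p hp hne => ?_
  have h1 : Bool.rec (motive := fun _ => Bool)
    (Bool.rec (motive := fun _ => Bool) (neM (kidsM D q p S) fun K =>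
      g1 D J q' (p :: x :: q' :: q :: th) (Nat.land m5 (D.nbT.getD p 0)) K) true (one (FM D q p S)))
    true (Nat.beq (Nat.land m5 (D.nbT.getD p 0)) 0) = true := bitsF_spec h p hp
  show cz D J 1 [Nat.land m5 (D.nbT.getD p 0)] _ _ = true
  cases h0 : Nat.beq (Nat.land m5 (D.nbT.getD p 0)) 0 with
  | true => exact zero_step (Nat.eq_of_beq_eq_true h0)
  | false =>
    rw [h0] at h1
    cases ho : one (FM D q p S) with
    | true =>
      refine eqv1 P hG.kids ?_
      rw [← kids_eq]
      exact eqv_of_one ho cov_FM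
    | false =>
      rw [ho] at h1
      have h2 := neM_spec h1 (by rw [kids_eq]; exact hne)
      have hG' : Gd nl 1 (toL (kidsM D q p S)) := by
        rw [kids_eq (x' := x) (y' := q') (th := th)]; exact hG.kids
      have h3 := G1 P h2 hG'
      rw [kids_eq (x' := x) (y' := q') (th := th)] at h3
      exact h3

theorem G3 (P : Pre D J nl T) {q q' q'' m3 m4 m5 : ℕ} {th : List ℕ} {S : ML}
    (h : g3 D J q q' q'' (q'' :: q' :: q :: th) m3 m4 m5 S = true) (hG : Gd nl 3 (toL S)) :
    cz D J 3 [m3, m4, m5] (q'' :: q' :: q :: th) (toL S) = true := by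
  refine step fun p hp hne => ?_
  have h1 : Bool.rec (motive := fun _ => Bool)
    (Bool.rec (motive := fun _ => Bool) (neM (kidsM D q p S) fun K =>
      g2 D J q' q'' (p :: q'' :: q' :: q :: th) (Nat.land m4 (D.nbT.getD p 0)) m5 K) true
      (one (FM D q p S)))
    true (Nat.beq (Nat.land m4 (D.nbT.getD p 0)) 0) = true := bitsF_spec h p hp
  show cz D J 2 [Nat.land m4 (D.nbT.getD p 0), m5] _ _ = true
  cases h0 : Nat.beq (Nat.land m4 (D.nbT.getD p 0)) 0 with
  | true => exact zero_step (Nat.eq_of_beq_eq_true h0)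
  | false =>
    rw [h0] at h1
    cases ho : one (FM D q p S) with
    | true =>
      refine eqv2 P hG.kids ?_
      rw [← kids_eq]
      exact eqv_of_one ho cov_FM
    | false =>
      rw [ho] at h1
      have h2 := neM_spec h1 (by rw [kids_eq]; exact hne)
      have hG' : Gd nl 2 (toL (kidsM D q p S)) := by
        rw [kids_eq (x' := q'') (y' := q') (th := th)]; exact hG.kids
      have h3 := G2 P h2 hG'
      rw [kids_eq (x' := q'') (y' := q') (th := th)] at h3
      exact h3

theorem cvK_spec : ∀ {S : List (Tr × List ℕ)} {k : ML → Bool}, cvK S k = true →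
    ∃ M, toL M = S ∧ k M = true
  | [], k, h => ⟨.n, rfl, h⟩
  | (t, r) :: S, k, h => by
    have h' : cvK S (fun l => Prod.rec (motive := fun _ => Bool) (fun t r =>
      List.rec (motive := fun _ => Bool) false (fun x r _ =>
      List.rec (motive := fun _ => Bool) false (fun y r _ =>
      List.rec (motive := fun _ => Bool) false (fun z w _ => k (.c t x y z w l)) r) r) r) (t, r))
        = true := h
    obtain ⟨M, h1, h2⟩ := cvK_spec h'
    rcases r with _ | ⟨x, _ | ⟨y, _ | ⟨z, w⟩⟩⟩
    · exact absurd h2 (by simp)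
    · exact absurd h2 (by simp)
    · exact absurd h2 (by simp)
    · exact ⟨.c t x y z w M, by rw [toL_c, h1], h2⟩

theorem G4 (P : Pre D J nl T) {q q' m2 m3 m4 m5 : ℕ} {th : List ℕ} {S : List (Tr × List ℕ)}
    (h : g4 D J q q' (q' :: q :: th) m2 m3 m4 m5 S = true) (hG : Gd nl 4 S) :
    cz D J 4 [m2, m3, m4, m5] (q' :: q :: th) S = true := by
  refine step fun p hp _ => ?_
  have h1 := bitsF_spec h p hp
  obtain ⟨M, e, h2⟩ := cvK_spec h1
  simp only [fN_eq] at h2
  show cz D J 3 [Nat.land m3 (D.nbT.getD p 0), m4, Nat.land m5 (D.opT.getD p 0)] _ _ = true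
  have hG' : Gd nl 3 (toL M) := by rw [e]; exact hG.kids
  have h3 := G3 P h2 hG'
  rw [e] at h3
  exact h3

theorem G5 (P : Pre D J nl T) {q m1 m2 m3 m4 m5 : ℕ} {th : List ℕ} {S : List (Tr × List ℕ)}
    (h : g5 D J q (q :: th) m1 m2 m3 m4 m5 S = true) (hG : Gd nl 5 S) :
    cz D J 5 [m1, m2, m3, m4, m5] (q :: th) S = true := by
  refine step fun p hp _ => ?_
  have h1 := bitsF_spec h p hp
  simp only [fN_eq] at h1
  show cz D J 4 [Nat.land m2 (D.nbT.getD p 0), m3, Nat.land m4 (D.opT.getD p 0), m5] _ _ = true
  exact G4 P h1 hG.kids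

end Fast

open Fast in
/-- **the fast check is enough** -/
theorem csP_of_csF {D : Dat} {J : List (List ℕ)} {nl : ℕ} {T : Tr} {p : ℕ}
    (hp : preF D J nl T = true) (h : csF D J T p = true) : csP D J T p = true := by
  have P := pre_of hp
  unfold csF at h
  simp only [fN_eq] at h
  have hG : Gd nl 6 [(T, ([] : List ℕ))] := by
    intro m hm
    rw [List.mem_singleton.1 hm]
    exact ⟨P.ud, P.lt⟩
  have h5 := G5 P h hG.kids
  unfold csP
  cases hn : isNil2 (kids2 (flt D) [] p (D.PL.getD p []) [(T, [])]) with
  | true => rfl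
  | false =>
    rw [cond_false, fL_eq]
    exact h5

end Vale.Agent.P032.Words.Trie
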