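import Vale.Agent.P032.Words.H670.Split

/-!
# A faster check of the palette tuples
-/

namespace Vale.Agent.P032.Words.Trie

namespace Fast

/-- members: tree, the last three letters, the letters before -/
inductive ML
  | n : ML
  | c : Tr → ℕ → ℕ → ℕ → List ℕ → ML → ML

/-- children with letters -/
inductive CL
  | n : CL
  | c : ℕ → Tr → CL → CL

/-- as a list -/
noncomputable def toL (S : ML) : List (Tr × List ℕ) :=
  ML.rec (motive := fun _ => List (Tr × List ℕ)) []
    (fun t x y z w _ ih => (t, x :: y :: z :: w) :: ih) S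

/-- the number of the lowest bit -/
noncomputable def lb (m : ℕ) : ℕ :=
  Nat.land (Nat.shiftRight (nat_lit 220544676043655077866277337447867632841115249763151128083848210675118928441550703987060033982464)
    (Nat.mul (nat_lit 6) (Nat.mod (Nat.xor m (Nat.land m (Nat.sub m (nat_lit 1)))) (nat_lit 53)))) (nat_lit 63)

/-- all numbers with a bit in the mask (at most `n` bits) satisfy `f` -/
noncomputable def bitsF (n : ℕ) (f : ℕ → Bool) : ℕ → Bool :=
  Nat.rec (motive := fun _ => ℕ → Bool) (fun m => Nat.beq m (nat_lit 0))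
    (fun _ ih m => Bool.rec (motive := fun _ => Bool)
      (Nat.rec (motive := fun _ => Bool)
        (Bool.rec (motive := fun _ => Bool) false (ih (Nat.xor m (nat_lit 1))) (f (nat_lit 0)))
        (fun p _ => Bool.rec (motive := fun _ => Bool) false
        (ih (Nat.xor m (Nat.shiftLeft (nat_lit 1) (Nat.succ p)))) (f (Nat.succ p))) (lb m))
      true (Nat.beq m (nat_lit 0))) n

/-- the children of `t` with the letters of a list -/
noncomputable def sel (l : List ℕ) (t : Tr) : CL :=
  List.rec (motive := fun _ => CL) .n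
    (fun a _ ih => Tr.rec (motive := fun _ => CL) ih
      (fun v => .c a (.l v) ih) (fun b s r _ _ => .c a (.c b s r) ih) (ch t a)) l

/-- the children of a member, in front of a list -/
noncomputable def kC (x y z : ℕ) (w : List ℕ) (S : ML) (C : CL) : ML :=
  CL.rec (motive := fun _ => ML) S (fun a s _ ih => .c s a x y (z :: w) ih) C

/-- the condition G33 is not empty -/
noncomputable def ndF (D : Dat) (q p : ℕ) : Bool :=
  Bool.rec (motive := fun _ => Bool) false (Bool.rec (motive := fun _ => Bool) false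
    (Bool.rec (motive := fun _ => Bool) true false
      (Nat.beq (Nat.land (D.P.getD q 0) (D.P.getD p 0)) 0)) (Nat.ble D.A p)) (Nat.ble D.A q)

/-- the letters of the palette `p` which are allowed opposite to the letter `b` of `q` -/
noncomputable def fl (D : Dat) (q p b : ℕ) : List ℕ :=
  Bool.rec (motive := fun _ => List ℕ) (D.PL.getD p [])
    (List.filter (fun a => Bool.not (Nat.beq (Nat.add (D.L.getD a 0)
      (Nat.land (D.P.getD q 0) (D.P.getD p 0))) (D.P.getD p 0))) (D.PL.getD p []))
    (Nat.beq (Nat.add (D.L.getD b 0) (Nat.land (D.P.getD q 0) (D.P.getD p 0))) (D.P.getD q 0))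

/-- the children, positions `3, 4, 5` -/
noncomputable def kidsM (D : Dat) (q p : ℕ) (S : ML) : ML :=
  Bool.rec (motive := fun _ => ML)
    (ML.rec (motive := fun _ => ML) .n
      (fun t x y z w _ ih => kC x y z w ih (sel (D.PL.getD p []) t)) S)
    (ML.rec (motive := fun _ => ML) .n
      (fun t x y z w _ ih => kC x y z w ih (sel (fl D q p z) t)) S)
    (ndF D q p)

/-- mask of the leaves -/
noncomputable def LM (t : Tr) : ℕ :=
  Tr.rec (motive := fun _ => ℕ) 0 (fun v => Nat.shiftLeft 1 v) (fun _ _ _ ih ih' => Nat.lor ih ih') t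

/-- mask of the leaves below children -/
noncomputable def LS (l : List ℕ) (t : Tr) : ℕ :=
  List.rec (motive := fun _ => ℕ) 0 (fun a _ ih => Nat.lor (LM (ch t a)) ih) l

/-- mask of the leaves below the children of all members -/
noncomputable def FM (D : Dat) (q p : ℕ) (S : ML) : ℕ :=
  Bool.rec (motive := fun _ => ℕ)
    (ML.rec (motive := fun _ => ℕ) 0 (fun t _ _ _ _ _ ih => Nat.lor (LS (D.PL.getD p []) t) ih) S)
    (ML.rec (motive := fun _ => ℕ) 0 (fun t _ _ z _ _ ih => Nat.lor (LS (fl D q p z) t) ih) S)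
    (ndF D q p)

/-- at most one bit -/
noncomputable def one (m : ℕ) : Bool := Nat.beq (Nat.land m (Nat.sub m (nat_lit 1))) (nat_lit 0)

/-- position 5 -/
noncomputable def g1 (D : Dat) (J : List (List ℕ)) (q : ℕ) (th : List ℕ) (m5 : ℕ)
    (S : ML) : Bool :=
  bitsF D.N (fun p => Bool.rec (motive := fun _ => Bool)
    (finB D J (p :: th) (kids2 (flt D) th p (D.PL.getD p []) (toL S)))
    true (one (FM D q p S))) m5

/-- empty lists are fine -/
noncomputable def neM (K : ML) (k : ML → Bool) : Bool :=
  ML.rec (motive := fun _ => Bool) true (fun t x y z w l _ => k (.c t x y z w l)) K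

/-- position 4 -/
noncomputable def g2 (D : Dat) (J : List (List ℕ)) (q q' : ℕ) (th : List ℕ) (m4 m5 : ℕ)
    (S : ML) : Bool :=
  bitsF D.N (fun p => Bool.rec (motive := fun _ => Bool)
    (Bool.rec (motive := fun _ => Bool) (neM (kidsM D q p S) fun K =>
      g1 D J q' (p :: th) (Nat.land m5 (D.nbT.getD p (nat_lit 0))) K) true (one (FM D q p S)))
    true (Nat.beq (Nat.land m5 (D.nbT.getD p (nat_lit 0))) (nat_lit 0))) m4

/-- position 3 -/
noncomputable def g3 (D : Dat) (J : List (List ℕ)) (q q' q'' : ℕ) (th : List ℕ) (m3 m4 m5 : ℕ)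
    (S : ML) : Bool :=
  bitsF D.N (fun p => Bool.rec (motive := fun _ => Bool)
    (Bool.rec (motive := fun _ => Bool) (neM (kidsM D q p S) fun K =>
      g2 D J q' q'' (p :: th) (Nat.land m4 (D.nbT.getD p (nat_lit 0))) m5 K) true (one (FM D q p S)))
    true (Nat.beq (Nat.land m4 (D.nbT.getD p (nat_lit 0))) (nat_lit 0))) m3

/-- as members -/
noncomputable def cvK (S : List (Tr × List ℕ)) : (ML → Bool) → Bool :=
  List.rec (motive := fun _ => (ML → Bool) → Bool) (fun k => k .n)
    (fun m _ ih k => ih fun l => Prod.rec (motive := fun _ => Bool) (fun t r =>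
      List.rec (motive := fun _ => Bool) false (fun x r _ =>
      List.rec (motive := fun _ => Bool) false (fun y r _ =>
      List.rec (motive := fun _ => Bool) false (fun z w _ => k (.c t x y z w l)) r) r) r) m) S

/-- position 2 -/
noncomputable def g4 (D : Dat) (J : List (List ℕ)) (q q' : ℕ) (th : List ℕ) (m2 m3 m4 m5 : ℕ)
    (S : List (Tr × List ℕ)) : Bool :=
  bitsF D.N (fun p => cvK (kids2 (flt D) th p (D.PL.getD p []) S) fun K =>
    fN (Nat.land m3 (D.nbT.getD p 0)) fun m3 => fN (Nat.land m5 (D.opT.getD p 0)) fun m5 =>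
      g3 D J q q' p (p :: th) m3 m4 m5 K) m2

/-- position 1 -/
noncomputable def g5 (D : Dat) (J : List (List ℕ)) (q : ℕ) (th : List ℕ) (m1 m2 m3 m4 m5 : ℕ)
    (S : List (Tr × List ℕ)) : Bool :=
  bitsF D.N (fun p => fN (Nat.land m2 (D.nbT.getD p 0)) fun m2 => fN (Nat.land m4 (D.opT.getD p 0)) fun m4 =>
      g4 D J q p (p :: th) m2 m3 m4 m5
        (kids2 (flt D) th p (D.PL.getD p []) S)) m1

end Fast

open Fast in
/-- the palette tuples with first palette `p` -/
noncomputable def csF (D : Dat) (J : List (List ℕ)) (T : Tr) (p : ℕ) : Bool :=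
  fN (Nat.land (2 ^ 40 - 1) (D.nbT.getD p 0)) fun m1 =>
    fN (Nat.land (2 ^ 40 - 1) (D.opT.getD p 0)) fun m3 =>
      g5 D J p [p] m1 (2 ^ 40 - 1) m3 (2 ^ 40 - 1) m1
        (kids2 (flt D) [] p (D.PL.getD p []) [(T, [])])

end Vale.Agent.P032.Words.Trie
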